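import Vale.Agent.P179.R2.H452.Fi2

/-!
# Blocks with abelian defect groups: a local block for the fixed points of `C_T(M)`, and the
reduction of the weight conjecture for classes of abelian defect groups closed under direct factors
-/

open P179B Subgroup

theorem Vale.Agent.Results.P179.AbelianDefectReduction.result (p : ℕ) [Fact p.Prime]
    (k : Type*) [Field k] [IsAlgClosed k] [CharP k p] :
    Nonempty (integralClosure ℤ ℂ →+* k) ∧
    ∀ red : integralClosure ℤ ℂ →+* k,
      (∀ Cl : ∀ (K : Type) [Group K], Prop, FactorClosed Cl →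
        (WeightConjAb p red Cl ↔ WeightConjAbMinimal p red Cl)) ∧
      ∀ (G : Type) [Group G] [Finite G] (B : MonoidAlgebra k G), IsBlock B →
        ∀ D : Subgroup G, IsDefectGroup B D → (∀ x ∈ D, ∀ y ∈ D, x * y = y * x) →
        (∀ a : ℕ, (∃ d ∈ D, d ^ p ^ a ≠ 1) →
          WeightConjAb p red (fun (K : Type) [Group K] => SmallFactor p a D K) →
          numSimpleIn B ≡ numWeightsIn p red B [MOD p ^ (a + 1)]) ∧
        (∃ b : MonoidAlgebra k (centralizer (D : Set G)), IsBlock b ∧ InducesTo b B) ∧
        ∀ b : MonoidAlgebra k (centralizer (D : Set G)), IsBlock b → InducesTo b B →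
          (WeightConjAb p red (fun (K : Type) [Group K] => ProperFactor D K) →
            numSimpleIn B = numWeightsIn p red B ∨
              (ReducedBlock p red B D b ∧
                (SolvedBelow p red D → PrimitiveBlock p B ∧ NotCentralProduct G))) ∧
          ∀ M : Subgroup G, M.Normal → IsPGroup p M → HasLocalBlock p red B D b M :=
  have hE := P179H351.eqwStmt p k
  ⟨P179C.exists_red p k, fun red => ⟨fun _ hCl => P179H452.weightConjAb_iff_minimal red hE hCl,
    fun _ _ _ _ hB _ hD hab => ⟨fun _ hex h => P179H443.modEq_of_small red hE hB hD hab hex h,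
      exists_root p hB hD, fun _ hb hbB => ⟨P179H452.minimal_or red hE hB hD hab hb hbB,
        fun M _ hM => P179H443.hasLocalBlock red hE hB hD hab hb hbB M hM⟩⟩⟩⟩
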