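import Vale.Agent.P179.R2.H364.KForm2
import Vale.Agent.P179.H526.Z20

/-!
# Blocks with abelian defect group `D` and free action of the inertial quotient on `K = D` or
`K = [D, T]`: the weight conjecture modulo the exponent of `K`, and the equality
-/

open P179B Subgroup

theorem Vale.Agent.Results.P179.FreeInertialEquality.result (p : ℕ) [Fact p.Prime]
    (k : Type*) [Field k] [IsAlgClosed k] [CharP k p] :
    Nonempty (integralClosure ℤ ℂ →+* k) ∧
    ∀ (red : integralClosure ℤ ℂ →+* k) (G : Type) [Group G] [Finite G]
      (B : MonoidAlgebra k G), IsBlock B → ∀ D : Subgroup G, IsDefectGroup B D →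
      (∃ b : MonoidAlgebra k (centralizer (D : Set G)), IsBlock b ∧ InducesTo b B) ∧
      ∀ b : MonoidAlgebra k (centralizer (D : Set G)), IsBlock b → InducesTo b B →
        (∀ x ∈ D, ∀ y ∈ D, x * y = y * x) →
        ∀ K : Subgroup G, (K = D ∨ K = hyperfocal D b) →
          (∀ u ∈ K, u ≠ 1 → u ∈ regularElements D b) →
          numSimpleIn B ≡ numWeightsIn p red B [MOD Monoid.exponent K] ∧
          (p ≠ 2 → (inertialIndex D b < Monoid.exponent K ∨
            (numWeightsIn p red B ≤ Monoid.exponent K ∧
              inertialIndex D b < Monoid.exponent K + numWeightsIn p red B) ∨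
            Nat.card {x : G // x ∈ K ∧ x ^ p = 1} ≤ Monoid.exponent K) →
            numSimpleIn B = numWeightsIn p red B) :=
  ⟨P179C.exists_red p k, fun red _ _ _ _ hB D hD => ⟨exists_root p hB hD,
    fun _ hb hbB hab _ hK hfree =>
      ⟨P179H364.modEq_free_core red hB hD hab hb hbB hK hfree,
        fun hp2 h => P179H364.eq_free_core red hp2 hB hD hab hb hbB hK hfree h⟩⟩⟩
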