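import Vale.Agent.P179.R2.H443.ExpT

/-!
# The exponent of `Z(D)D'/D'` divides the Knörr–Robinson sum of a block with defect group `D`

For every block `B` of every finite group, with defect group `D`, the Knörr–Robinson sum of `B` is
divisible by the exponent of `Z(D)D'/D'` (the exponent of `D` if `D` is abelian), and the weight
congruence modulo a divisor of this exponent passes from the local blocks below `B` to `B`.
-/

open P179B

theorem Vale.Agent.Results.P179.KnorrRobinsonExponent.result (p : ℕ) [Fact p.Prime]
    (k : Type*) [Field k] [IsAlgClosed k] [CharP k p] :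
    Nonempty (integralClosure ℤ ℂ →+* k) ∧
    ∀ (G : Type) [Group G] [Finite G] (B : MonoidAlgebra k G), IsBlock B →
      ∀ D : Subgroup G, IsDefectGroup B D →
      (centralExp D : ℤ) ∣ krSum p B ∧
      ((∀ a b : D, a * b = b * a) → (Monoid.exponent D : ℤ) ∣ krSum p B) ∧
      ∀ (red : integralClosure ℤ ℂ →+* k) (n : ℕ), n ∣ centralExp D →
        (∀ (s : NChain p G) (b : MonoidAlgebra k (chainStab s.1)), IsBlock b →
          InducesTo b B → numSimpleIn b ≡ numWeightsIn p red b [MOD n]) →
        numSimpleIn B ≡ numWeightsIn p red B [MOD n] :=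
  ⟨P179C.exists_red p k, fun _ _ _ _ hB D hD =>
    ⟨P179H443.centralExp_dvd_krSum hB hD,
      fun h => P179H443.centralExp_of_comm D h ▸ P179H443.centralExp_dvd_krSum hB hD,
      fun red _ hn h => P179H443.modEq_of_local red hB hD hn h⟩⟩
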