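import Vale.Agent.P179.R2.H292.FinalI
import Vale.Agent.P179.R2.H443.Sv2
import Vale.Agent.P179.H526.Z15

/-!
# The blockwise Alperin weight conjecture for abelian defect groups with growing cyclic factors

Let `p` be odd, `T` the inertial group of the block `B` with abelian defect group `D`, and `K = D` or
`K = [D, T]`. If `K` is a product of two cyclic groups, not both of order `p > 3`, or the `i`-th
smallest cyclic factor of `K` has order at least `p ^ (n i)` for all `i ≥ 1`, where `n i` is
`1, 2, 6, 11, 20, 37, ...`, or `1, 2, 4, 6, 10, 13, ...` for an abelian inertial quotient, or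
`3, 3, 3, ...` for an inertial quotient of order less than `p - 1`, or if a further condition of
`Known` holds, then `l(B) = |W_p(B)|`. The class `SolvedBy` is obtained from these cases by a
recursion.
-/

open P179B Subgroup

theorem Vale.Agent.Results.P179.LargeExponentEquality.result (p : ℕ) [Fact p.Prime]
    (k : Type*) [Field k] [IsAlgClosed k] [CharP k p] :
    Nonempty (integralClosure ℤ ℂ →+* k) ∧
    ∀ (red : integralClosure ℤ ℂ →+* k) (G : Type) [Group G] [Finite G]
      (B : MonoidAlgebra k G), IsBlock B →
      (∀ D : Subgroup G, IsDefectGroup B D →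
        ∃ b : MonoidAlgebra k (centralizer (D : Set G)), IsBlock b ∧ InducesTo b B) ∧
      (2 < p → ∀ D : Subgroup G, IsDefectGroup B D → (∀ x ∈ D, ∀ y ∈ D, x * y = y * x) →
        ∀ b : MonoidAlgebra k (centralizer (D : Set G)), IsBlock b → InducesTo b B →
        (∀ a : ℕ, LevelSolved p a D b →
          numSimpleIn B ≡ numWeightsIn p red B [MOD p ^ (a + 1)]) ∧
        ∀ (K : Subgroup G) (j o : ℕ) (w : G), IsCore D b K → RegularCosetIn p j o D b K w →
          numSimpleIn B * Nat.card {y : G // ∃ d ∈ K, d ^ p ^ j = y} * o ≤ Nat.card K * p) ∧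
      (SolvedBlock p B → numSimpleIn B = numWeightsIn p red B) ∧
      ∀ (R : Subgroup G) [R.Normal], IsPGroup p R →
        (∀ B' : MonoidAlgebra k (G ⧸ R), IsBlock B' →
          B' * MonoidAlgebra.mapDomainAlgHom k k (QuotientGroup.mk' R) B = B' →
          SolvedBlock p B') →
        numSimpleIn B = numWeightsIn p red B := by
  refine ⟨P179C.exists_red p k, fun red G _ _ B hB => ⟨fun D hD => exists_root p hB hD,
    fun hp2 D hD hab b hb hbB =>
      ⟨fun a ha => P179H443.modEq_of_levelSolved red hB hD hab hb hbB (Or.inr ⟨hp2, ha⟩),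
        fun K j o w hK hw => P179H364.bound_core red (by omega) hB hD hab hb hbB hK hw⟩,
      fun h => P179H443.eq_of_solvedBlock red hB h, ?_⟩⟩
  intro R _ hR h
  exact equality_quo red R hR hB fun B' hB' hBB' =>
    P179H443.eq_of_solvedBlock red hB' (h B' hB' hBB')
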